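import Vale.Agent.P097.H439.Rat.Law

/-! # P097 / RAT-D1, RAT-D2, RAT-D3: the pencil laws at the ends -/

set_option linter.all false

open Complex Metric Filter Topology Set

namespace Vale.Agent.P097.H439.Rat

open Vale.Agent.P097.H402.Rat Vale.Agent.P097.H202 Vale.Agent.P097.TA

/-! ## formulas for `Ex` -/

theorem Ex_zero : Ex 0 = 1 := by simp [Ex]

theorem Ex_neg (w : ℂ) : Ex (-w) = Complex.exp (-w) * Ex w := by
  rcases eq_or_ne w 0 with rfl | hw
  · simp [Ex]
  · have h1 := mul_Ex w
    have h2 := mul_Ex (-w)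
    have h3 : Complex.exp (-w) * Complex.exp w = 1 := by rw [← Complex.exp_add]; simp
    apply mul_left_cancel₀ (neg_ne_zero.2 hw)
    rw [h2]
    linear_combination Complex.exp (-w) * h1 + h3

theorem continuous_Ex : Continuous Ex := differentiable_Ex.continuous

theorem hasDerivAt_mul_Ex (c w : ℂ) : HasDerivAt (fun w => w * Ex (c * w)) (Complex.exp (c * w)) w := by
  rcases eq_or_ne c 0 with rfl | hc
  · simp only [zero_mul, Ex_zero, mul_one, Complex.exp_zero]
    exact hasDerivAt_id w
  · have h1 : (fun w : ℂ => w * Ex (c * w)) = fun w => (Complex.exp (c * w) - 1) / c := by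
      funext w
      rw [← mul_Ex]
      field_simp
    rw [h1]
    have h2 : HasDerivAt (fun w : ℂ => c * w) c w := by simpa using (hasDerivAt_id w).const_mul c
    have h3 := (h2.cexp.sub_const 1).div_const c
    refine h3.congr_deriv ?_
    field_simp

theorem PI_exp (c t : ℂ) : PI (fun t => Complex.exp (c * t)) t = Ex (c * t) := by
  unfold PI
  rcases eq_or_ne (c * t) 0 with h | h
  · have : ∀ s : ℝ, c * ((s : ℂ) * t) = 0 := fun s => by
      rw [show c * ((s : ℂ) * t) = s * (c * t) by ring, h, mul_zero]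
    simp [this, h, Ex_zero]
  · have h1 : ∀ s : ℝ, Complex.exp (c * ((s : ℂ) * t)) = Complex.exp ((c * t) * s) := fun s => by
      congr 1; ring
    simp only [h1]
    rw [integral_exp_mul_complex h, Ex, if_neg h]
    simp

/-- averages are linear -/
theorem PI_add {f g : ℂ → ℂ} (hf : AnalyticAt ℂ f 0) (hg : AnalyticAt ℂ g 0) (c : ℂ) :
    ∀ᶠ t in 𝓝 0, PI (fun t => f t + c * g t) t = PI f t + c * PI g t := by
  obtain ⟨r, hr, hb⟩ := Metric.eventually_nhds_iff_ball.1
    (hf.eventually_analyticAt.and hg.eventually_analyticAt)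
  filter_upwards [ball_mem_nhds (0 : ℂ) hr] with t htr
  have hmem : ∀ s ∈ Icc (0 : ℝ) 1, (s : ℂ) * t ∈ ball (0 : ℂ) r := by
    intro s hs
    rw [mem_ball_zero_iff] at htr ⊢
    rw [norm_mul, Complex.norm_of_nonneg hs.1]
    exact (mul_le_of_le_one_left (norm_nonneg _) hs.2).trans_lt htr
  have hp : IntervalIntegrable (fun s : ℝ => f (s * t)) MeasureTheory.volume 0 1 := by
    refine ContinuousOn.intervalIntegrable ?_
    rw [uIcc_of_le zero_le_one]
    intro s hs
    have h1 := (hb _ (hmem s hs)).1.continuousAt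
    exact (ContinuousAt.comp (f := fun s : ℝ => (s : ℂ) * t) h1
      (by fun_prop)).continuousWithinAt
  have hm : IntervalIntegrable (fun s : ℝ => g (s * t)) MeasureTheory.volume 0 1 := by
    refine ContinuousOn.intervalIntegrable ?_
    rw [uIcc_of_le zero_le_one]
    intro s hs
    have h1 := (hb _ (hmem s hs)).2.continuousAt
    exact (ContinuousAt.comp (f := fun s : ℝ => (s : ℂ) * t) h1
      (by fun_prop)).continuousWithinAt
  unfold PI
  rw [intervalIntegral.integral_add hp (hm.const_mul _), intervalIntegral.integral_const_mul]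

variable {R : ℂ → ℂ} {δ : ℝ} {E ξ X : ℂ → ℂ → ℂ} {N D : Polynomial ℂ} {Q : ℕ → Polynomial ℂ}
  {C : ℝ}

/-- the germ `A ↦ HH Q z ((A - A₀) / b)` is analytic and not zero -/
theorem germ_an (T : Dat R δ E ξ X N D Q C) (z A₀ b : ℂ) :
    AnalyticAt ℂ (fun A => HH Q z ((A - A₀) / b)) A₀ := by
  have h1 : AnalyticAt ℂ (HH Q z) ((A₀ - A₀) / b) := by
    simpa using (an_HH T).at z
  refine AnalyticAt.comp' (f := fun A => (A - A₀) / b) h1 ?_
  fun_prop

theorem germ_ne (T : Dat R δ E ξ X N D Q C) (z A₀ : ℂ) {b : ℂ} (hb : b ≠ 0) :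
    ¬ ∀ᶠ A in 𝓝 A₀, HH Q z ((A - A₀) / b) = 0 := by
  intro h
  apply HH_ne T z
  have h1 : Tendsto (fun η : ℂ => A₀ + b * η) (𝓝 0) (𝓝 A₀) := by
    have : ContinuousAt (fun η : ℂ => A₀ + b * η) 0 := by fun_prop
    simpa using this.tendsto
  filter_upwards [h1.eventually h] with η hη
  rwa [add_sub_cancel_left, mul_div_cancel_left₀ _ hb] at hη

/-- oddness along a function tending to `0` -/
theorem odd_comp (T : Dat R δ E ξ X N D Q C) (z : ℂ) {g : ℂ → ℂ} {w : ℂ}
    (hg : Tendsto g (𝓝 w) (𝓝 0)) : ∀ᶠ t in 𝓝 w, HH Q z (-g t) = -HH Q z (g t) :=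
  hg.eventually (oddness T z)

/-! ## RAT-D2 -/

theorem pd2 : PD2 := by
  intro R δ E ξ X N D Q C T z₀ hz hz'
  set n := N.eval z₀ with hn
  have hn0 : n ≠ 0 := by
    intro h
    obtain ⟨u, v, huv⟩ := T.rat.cop
    have := congrArg (Polynomial.eval z₀) huv
    rw [hn] at h
    simp [h, hz] at this
  have hzp : ∀ t, zp D z₀ t = z₀ := fun t => by simp [zp, hz]
  have hka : ∀ t, ka D z₀ t = 1 := fun t => by
    rw [ka, hzp, sub_self, D1_zero]
    rcases hz' with h | h
    · simp [h]
    · simp [h]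
  have hg1 : g1 N D z₀ = fun _ => n := by
    funext t
    rw [g1, hzp, hka, div_one]
  have hrh : rh N D z₀ = fun t => Complex.exp (n * t) := by
    funext t
    rw [rh, hg1, PI]
    simp [mul_comm]
  have hgm : gm N D z₀ = fun t => Complex.exp (n * t) := by
    funext t
    rw [gm, hrh, hz]
    simp
  have hgp : gp N D z₀ = fun t => Complex.exp (n * t) * t := by
    funext t
    rw [gp, hrh, hz]
    simp [sn_zero]
  have het : et N D z₀ = T2 N D z₀ := by
    funext t
    rw [et, hz]
    simp [L1_zero]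
  -- `1 + n η = 1 / Ex (- n t)`
  have hE0 : ∀ᶠ x in 𝓝 (0 : ℂ), Ex x ≠ 0 :=
    continuous_Ex.continuousAt.eventually_ne (by rw [Ex_zero]; exact one_ne_zero)
  have hnt : Tendsto (fun t : ℂ => n * t) (𝓝 0) (𝓝 0) := by
    have : ContinuousAt (fun t : ℂ => n * t) 0 := by fun_prop
    simpa using this.tendsto
  have key : ∀ᶠ t in 𝓝 (0 : ℂ), n * et N D z₀ t = 1 / Ex (-(n * t)) - 1 := by
    have h1 := PI_add ((an_gm N D).at z₀) ((an_gp N D).at z₀) n
    have h2 : ∀ᶠ t in 𝓝 (0 : ℂ), t * PI (fun t => gm N D z₀ t + n * gp N D z₀ t) t =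
        t * Complex.exp (n * t) - 0 * Complex.exp (n * 0) := by
      refine PI_eq (G := fun t => t * Complex.exp (n * t)) ?_ ?_
      · rw [hgm, hgp]
        fun_prop
      · refine Eventually.of_forall fun t => ?_
        have h3 : HasDerivAt (fun w : ℂ => n * w) n t := by
          simpa using (hasDerivAt_id t).const_mul n
        have h4 := (hasDerivAt_id t).mul h3.cexp
        refine h4.congr_deriv ?_
        simp only [hgm, hgp, id]
        ring
    filter_upwards [h1, h2, hnt.eventually hE0] with t e1 e2 e3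
    rw [het, T2]
    rw [e1] at e2
    have e4 : PI (gm N D z₀) t = Ex (n * t) := by rw [hgm, PI_exp]
    rw [e4] at e2 ⊢
    rw [Ex_neg]
    rcases eq_or_ne t 0 with rfl | ht
    · simp [PI_zero, hgp, Ex_zero]
    · have e5 : Ex (n * t) + n * PI (gp N D z₀) t = Complex.exp (n * t) := by
        apply mul_left_cancel₀ ht
        linear_combination e2
      have e6 : Complex.exp (-(n * t)) * Complex.exp (n * t) = 1 := by
        rw [← Complex.exp_add]; simp
      have e7 : Complex.exp (-(n * t)) ≠ 0 := Complex.exp_ne_zero _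
      field_simp
      linear_combination Complex.exp (-(n * t)) * e5 + e6
  have hdn : Tendsto (fun x : ℂ => x / n) (𝓝 0) (𝓝 0) := by
    have : ContinuousAt (fun x : ℂ => x / n) 0 := by fun_prop
    simpa using this.tendsto
  refine ⟨fun A => HH Q z₀ ((A - 0) / n), germ_an T z₀ 0 n, germ_ne T z₀ 0 hn0, ?_, ?_⟩
  · filter_upwards [odd_comp T z₀ hdn] with A hA
    rw [sub_zero, sub_zero, neg_div]
    exact hA
  · have ho : Tendsto (fun x : ℂ => (1 / Ex x - 1) / n) (𝓝 0) (𝓝 0) := by
      have : ContinuousAt (fun x : ℂ => (1 / Ex x - 1) / n) 0 := by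
        have := continuous_Ex.continuousAt (x := (0 : ℂ))
        have h1 : Ex 0 ≠ 0 := by rw [Ex_zero]; exact one_ne_zero
        fun_prop (disch := assumption)
      simpa [Ex_zero] using this.tendsto
    filter_upwards [hdn.eventually (master T z₀), hdn.eventually key, hE0, odd_comp T z₀ ho] with x
      e1 e2 e3 e4
    rw [hzp, hka, hrh] at e1
    simp only [mul_div_cancel₀ _ hn0] at e1 e2
    have e5 : et N D z₀ (x / n) = (1 / Ex (-x) - 1) / n := by
      rw [eq_div_iff hn0, mul_comm]; exact e2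
    have e6 : x / n - (1 / Ex (-x) - 1) / n = -((1 / Ex x - 1) / n) := by
      have e7 := mul_Ex x
      have e8 : Complex.exp (-x) * Complex.exp x = 1 := by rw [← Complex.exp_add]; simp
      have e9 : Complex.exp (-x) ≠ 0 := Complex.exp_ne_zero _
      rw [Ex_neg]
      field_simp
      linear_combination Complex.exp (-x) * e7 + e8
    rw [e5, div_one, e6, e4] at e1
    rw [sub_zero, sub_zero, e1]
    ring

/-! ## RAT-D1 -/

theorem aB_neg (σ : ℝ) (τ : ℂ) : aB σ (-τ) = Complex.exp (-τ) * aB σ τ := by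
  unfold aB
  rw [mul_neg, mul_neg, Ex_neg, Ex_neg]
  have : Complex.exp (-(((σ : ℂ) + 2) * τ)) = Complex.exp (-τ) * Complex.exp (-(((σ : ℂ) + 1) * τ)) := by
    rw [← Complex.exp_add]; congr 1; ring
  rw [this]
  have h : Complex.exp (-(((σ : ℂ) + 1) * τ)) ≠ 0 := Complex.exp_ne_zero _
  rcases eq_or_ne (Ex (((σ : ℂ) + 1) * τ)) 0 with h0 | h0
  · simp [h0]
  · field_simp

theorem aB_zero (σ : ℝ) : aB σ 0 = 1 := by simp [aB, Ex_zero]

theorem continuousAt_aB (σ : ℝ) : ContinuousAt (aB σ) 0 := by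
  unfold aB
  have h1 : Ex (((σ : ℂ) + 1) * 0) ≠ 0 := by rw [mul_zero, Ex_zero]; exact one_ne_zero
  refine ContinuousAt.div ?_ ?_ h1
  · exact (continuous_Ex.comp (by fun_prop : Continuous fun τ : ℂ => ((σ : ℂ) + 2) * τ)).continuousAt
  · exact (continuous_Ex.comp (by fun_prop : Continuous fun τ : ℂ => ((σ : ℂ) + 1) * τ)).continuousAt

theorem pd1 : PD1 := by
  intro R δ E ξ X N D Q C T z₀ σ hz0 hz hd hN
  set β : ℂ := I * z₀ * (Polynomial.derivative D).eval z₀ with hβ
  have hβ0 : β ≠ 0 := mul_ne_zero (mul_ne_zero I_ne_zero hz0) hd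
  have hN' : N.eval z₀ = σ * β := by rw [hN, hβ]; ring
  have hzp : ∀ t, zp D z₀ t = z₀ := fun t => by simp [zp, hz]
  have hka : ∀ t, ka D z₀ t = 1 + β * t := fun t => by
    rw [ka, hzp, sub_self, D1_zero, hz, hβ]
    simp only [mul_zero, zero_mul, Ex_zero]
    ring
  have hg1 : g1 N D z₀ = fun t => σ * β / (1 + β * t) := by
    funext t
    rw [g1, hzp, hka, hN']
  -- the slit
  have hsl : ∀ᶠ t in 𝓝 (0 : ℂ), 1 + β * t ∈ slitPlane := by
    have : ContinuousAt (fun t : ℂ => 1 + β * t) 0 := by fun_prop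
    exact this.eventually (isOpen_slitPlane.mem_nhds (by simp))
  have hlog : ∀ᶠ t in 𝓝 (0 : ℂ),
      HasDerivAt (fun t : ℂ => Complex.log (1 + β * t)) (β / (1 + β * t)) t := by
    filter_upwards [hsl] with t ht
    have h3 : HasDerivAt (fun w : ℂ => 1 + β * w) β t := by
      simpa using ((hasDerivAt_id t).const_mul β).const_add 1
    exact h3.clog ht
  have hrh : rh N D z₀ =ᶠ[𝓝 0] fun t => Complex.exp (σ * Complex.log (1 + β * t)) := by
    have h1 := PI_eq (G := fun t => σ * Complex.log (1 + β * t)) ((an_g1 N D).at z₀) (by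
      filter_upwards [hlog] with t ht
      refine (ht.const_mul (σ : ℂ)).congr_deriv ?_
      rw [hg1]
      ring)
    filter_upwards [h1] with t ht
    rw [rh, ht]
    simp
  have hgm : gm N D z₀ = rh N D z₀ := by
    funext t
    rw [gm, hz]
    simp
  have hgp : gp N D z₀ = fun t => rh N D z₀ t * t := by
    funext t
    rw [gp, hz]
    simp [sn_zero]
  have het : et N D z₀ = T2 N D z₀ := by
    funext t
    rw [et, hz]
    simp [L1_zero]
  -- `β t` times the averages
  have hav : ∀ c : ℂ, ∀ f : ℂ → ℂ, AnalyticAt ℂ f 0 →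
      (f =ᶠ[𝓝 0] fun t => Complex.exp (c * Complex.log (1 + β * t))) →
      ∀ᶠ t in 𝓝 (0 : ℂ), β * (t * PI f t) =
        Complex.log (1 + β * t) * Ex ((c + 1) * Complex.log (1 + β * t)) := by
    intro c f hf hfe
    have h1 := PI_eq (G := fun t => Complex.log (1 + β * t) *
      Ex ((c + 1) * Complex.log (1 + β * t)) / β) hf (by
      filter_upwards [hlog, hfe, hsl] with t ht he hs
      have h2 := (HasDerivAt.comp (h₂ := fun w => w * Ex ((c + 1) * w))
        (h := fun t => Complex.log (1 + β * t)) t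
        (hasDerivAt_mul_Ex (c + 1) (Complex.log (1 + β * t))) ht).div_const β
      refine h2.congr_deriv ?_
      rw [he]
      have h0 : 1 + β * t ≠ 0 := slitPlane_ne_zero hs
      have h3 : Complex.exp ((c + 1) * Complex.log (1 + β * t)) =
          Complex.exp (c * Complex.log (1 + β * t)) * (1 + β * t) := by
        rw [add_mul, one_mul, Complex.exp_add, Complex.exp_log h0]
      rw [h3]
      field_simp)
    filter_upwards [h1] with t ht
    rw [ht]
    simp only [mul_zero, add_zero, Complex.log_one, zero_mul, zero_div, sub_zero]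
    field_simp
  have hE0 : ∀ c : ℂ, ∀ᶠ t in 𝓝 (0 : ℂ), Ex (c * Complex.log (1 + β * t)) ≠ 0 := by
    intro c
    have h1 : ContinuousAt (fun t => Ex (c * Complex.log (1 + β * t))) 0 := by
      have h2 := hlog.self_of_nhds.continuousAt
      exact continuous_Ex.continuousAt.comp (h2.const_mul c |> fun h => h)
    refine h1.eventually_ne ?_
    simp [Ex_zero]
  have key : ∀ᶠ t in 𝓝 (0 : ℂ), 1 + β * et N D z₀ t = aB σ (Complex.log (1 + β * t)) := by
    have h1 := PI_add ((an_gm N D).at z₀) ((an_gp N D).at z₀) β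
    have h2 := hav σ (gm N D z₀) ((an_gm N D).at z₀) (by rw [hgm]; exact hrh)
    have h3 := hav (σ + 1) (fun t => gm N D z₀ t + β * gp N D z₀ t)
      (((an_gm N D).at z₀).add (analyticAt_const.mul ((an_gp N D).at z₀))) (by
        filter_upwards [hrh, hsl] with t ht hs
        have h0 : 1 + β * t ≠ 0 := slitPlane_ne_zero hs
        rw [hgm, hgp]
        simp only [ht]
        rw [add_mul, one_mul, Complex.exp_add, Complex.exp_log h0]
        ring)
    filter_upwards [h1, h2, h3, hE0 (σ + 1), hsl] with t e1 e2 e3 e4 e5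
    have h0 : 1 + β * t ≠ 0 := slitPlane_ne_zero e5
    rcases eq_or_ne t 0 with rfl | ht
    · simp [et_zero, aB_zero]
    · set ℓ := Complex.log (1 + β * t) with hℓ
      have hℓ0 : ℓ ≠ 0 := by
        intro h
        have := Complex.exp_log h0
        rw [← hℓ, h, Complex.exp_zero] at this
        have : β * t = 0 := by linear_combination -this
        rcases mul_eq_zero.1 this with h | h
        · exact hβ0 h
        · exact ht h
      rw [e1] at e3
      rw [het, T2, aB]
      have e6 : (σ : ℂ) + 1 + 1 = σ + 2 := by ring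
      rw [e6] at e3
      have e7 : PI (gm N D z₀) t ≠ 0 := by
        intro h
        rw [h, mul_zero, mul_zero] at e2
        rcases mul_eq_zero.1 e2.symm with h | h
        · exact hℓ0 h
        · exact e4 h
      rw [eq_div_iff e4]
      have e8 : (1 + β * (PI (gp N D z₀) t / PI (gm N D z₀) t)) * PI (gm N D z₀) t =
          PI (gm N D z₀) t + β * PI (gp N D z₀) t := by
        field_simp
      apply mul_left_cancel₀ hℓ0
      rw [← e3, ← e8]
      linear_combination (-(1 + β * (PI (gp N D z₀) t / PI (gm N D z₀) t))) * e2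
  have ht0 : Tendsto (fun τ : ℂ => (Complex.exp τ - 1) / β) (𝓝 0) (𝓝 0) := by
    have : ContinuousAt (fun τ : ℂ => (Complex.exp τ - 1) / β) 0 := by fun_prop
    simpa using this.tendsto
  have him : ∀ᶠ τ in 𝓝 (0 : ℂ), |τ.im| < Real.pi := by
    have : ContinuousAt (fun τ : ℂ => |τ.im|) 0 := by fun_prop
    exact this.eventually (gt_mem_nhds (by simpa using Real.pi_pos))
  refine ⟨fun A => HH Q z₀ ((A - 1) / β), germ_an T z₀ 1 β, germ_ne T z₀ 1 hβ0, ?_, ?_⟩
  · have h1 : Tendsto (fun A : ℂ => (A - 1) / β) (𝓝 1) (𝓝 0) := by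
      have : ContinuousAt (fun A : ℂ => (A - 1) / β) 1 := by fun_prop
      simpa using this.tendsto
    filter_upwards [odd_comp T z₀ h1] with A hA
    rw [← hA]
    congr 1
    ring
  · have ho : Tendsto (fun τ : ℂ => (aB σ (-τ) - 1) / β) (𝓝 0) (𝓝 0) := by
      have h1 : ContinuousAt (fun τ : ℂ => aB σ (-τ)) 0 := by
        refine ContinuousAt.comp (g := aB σ) (f := fun τ : ℂ => -τ) ?_ (by fun_prop)
        rw [neg_zero]
        exact continuousAt_aB σ
      have : ContinuousAt (fun τ : ℂ => (aB σ (-τ) - 1) / β) 0 := by fun_prop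
      simpa [aB_zero] using this.tendsto
    filter_upwards [ht0.eventually (master T z₀), ht0.eventually key, ht0.eventually hrh, him,
      odd_comp T z₀ ho] with τ e1 e2 e3 e4 e5
    have e6 : 1 + β * ((Complex.exp τ - 1) / β) = Complex.exp τ := by field_simp; ring
    have e7 : Complex.log (Complex.exp τ) = τ :=
      Complex.log_exp (abs_lt.1 e4).1 (abs_lt.1 e4).2.le
    rw [e6, e7] at e2 e3
    rw [hzp, hka, e6, e3] at e1
    have e8 : (aB σ τ - 1) / β = et N D z₀ ((Complex.exp τ - 1) / β) := by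
      rw [← e2]
      field_simp
      ring
    have e9 : ((Complex.exp τ - 1) / β - et N D z₀ ((Complex.exp τ - 1) / β)) / Complex.exp τ =
        -((aB σ (-τ) - 1) / β) := by
      rw [← e8, aB_neg]
      have e10 : Complex.exp (-τ) * Complex.exp τ = 1 := by rw [← Complex.exp_add]; simp
      have e11 : Complex.exp τ ≠ 0 := Complex.exp_ne_zero _
      field_simp
      linear_combination (aB σ τ) * e10
    rw [e8, e1, e9, e5]
    have e12 : Complex.exp (((σ : ℂ) + 3) * τ) = Complex.exp (σ * τ) * Complex.exp τ ^ 3 := by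
      rw [← Complex.exp_nat_mul, ← Complex.exp_add]
      congr 1
      push_cast
      ring
    rw [e12]
    ring

/-! ## RAT-D3 -/

theorem pd3 : PD3 := by
  intro R δ E ξ X N D Q C T a ha hD0 hN
  set d := D.eval 0 with hd
  have hzp : ∀ t, zp D 0 t = 0 := fun t => by simp [zp]
  have hka : ∀ t, ka D 0 t = 1 := fun t => by simp [ka]
  have hg1 : g1 N D 0 = fun _ => I * a * d := by
    funext t
    rw [g1, hzp, hka, div_one, hN]
  have hrh : rh N D 0 = fun t => Complex.exp (I * a * d * t) := by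
    funext t
    rw [rh, hg1, PI]
    simp [mul_comm]
  have hgm : gm N D 0 = fun t => Complex.exp ((I * (a - 1) * d) * t) := by
    funext t
    rw [gm, hrh, ← hd, ← Complex.exp_add]
    congr 1
    ring
  have hsum : (fun t => gm N D 0 t + 2 * I * d * gp N D 0 t) =
      fun t => Complex.exp ((I * (a + 1) * d) * t) := by
    funext t
    have h1 := mul_sn (d * t)
    rw [Complex.sin, show -(d * t) * I = -(I * d * t) by ring, show d * t * I = I * d * t by ring] at h1
    have h2 : Complex.exp ((I * (a + 1) * d) * t) =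
        Complex.exp (I * a * d * t) * Complex.exp (I * d * t) := by
      rw [← Complex.exp_add]; congr 1; ring
    rw [gm, gp, hrh, ← hd, h2]
    linear_combination (2 * I * Complex.exp (I * a * d * t)) * h1 +
      Complex.exp (I * a * d * t) * (Complex.exp (-(I * d * t)) - Complex.exp (I * d * t)) * I_sq
  set m : ℝ := 3 / a with hm
  have hma : (m : ℂ) * a = 3 := by
    rw [hm]; push_cast
    have : (a : ℂ) ≠ 0 := by exact_mod_cast ha.ne'
    field_simp
  have haC : (a : ℂ) ≠ 0 := by exact_mod_cast ha.ne'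
  have hE0 : ∀ c : ℂ, ∀ᶠ t in 𝓝 (0 : ℂ), Ex (c * t) ≠ 0 := by
    intro c
    have h1 : Continuous (fun t => Ex (c * t)) := continuous_Ex.comp (by fun_prop)
    refine h1.continuousAt.eventually_ne ?_
    simp [Ex_zero]
  have key : ∀ᶠ t in 𝓝 (0 : ℂ), 2 * I * d * et N D 0 t =
      Complex.log (Ex ((I * (a + 1) * d) * t) / Ex ((I * (a - 1) * d) * t)) := by
    have h1 := PI_add ((an_gm N D).at 0) ((an_gp N D).at 0) (2 * I * d)
    filter_upwards [h1, hE0 (I * (a - 1) * d)] with t e1 e2
    rw [hsum, PI_exp] at e1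
    have e3 : PI (gm N D 0) t = Ex ((I * (a - 1) * d) * t) := by rw [hgm, PI_exp]
    rw [et, ← hd]
    have e4 : 2 * I * d * (T2 N D 0 t * L1 (2 * I * d * T2 N D 0 t)) =
        Complex.log (1 + 2 * I * d * T2 N D 0 t) := by
      rw [← mul_L1]; ring
    rw [e4]
    congr 1
    rw [e1, T2, e3, add_div, div_self e2, mul_div_assoc]
  have hvI : ∀ᶠ s in 𝓝 (0 : ℂ), vI m (-s) = vI m s - 2 * m * s := by
    have hr0 : Ex ((3 + (m : ℂ)) * 0) / Ex ((3 - (m : ℂ)) * 0) = 1 := by simp [Ex_zero]
    have h1 : ContinuousAt (fun s => vI m s) 0 := by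
      unfold vI
      refine ContinuousAt.clog ?_ ?_
      · refine ContinuousAt.div ?_ ?_ ?_
        · exact (continuous_Ex.comp (by fun_prop : Continuous fun s : ℂ => (3 + (m : ℂ)) * s)).continuousAt
        · exact (continuous_Ex.comp (by fun_prop : Continuous fun s : ℂ => (3 - (m : ℂ)) * s)).continuousAt
        · simp [Ex_zero]
      · rw [hr0]; simp
    have h2 : ∀ᶠ s in 𝓝 (0 : ℂ), |(vI m s - 2 * m * s).im| < Real.pi := by
      have h3' : ContinuousAt (fun s => vI m s - 2 * m * s) 0 := h1.sub (by fun_prop)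
      have h3 : ContinuousAt (fun s => |(vI m s - 2 * m * s).im|) 0 :=
        (Complex.continuous_im.continuousAt.comp h3').abs
      refine h3.eventually (gt_mem_nhds ?_)
      have : vI m 0 = 0 := by simp [vI, Ex_zero]
      simp [this, Real.pi_pos]
    filter_upwards [h2, hE0 (3 + m), hE0 (3 - m)] with s e1 e2 e3
    have e4 : Ex ((3 + (m : ℂ)) * -s) / Ex ((3 - (m : ℂ)) * -s) =
        Complex.exp (vI m s - 2 * m * s) := by
      rw [mul_neg, mul_neg, Ex_neg, Ex_neg, Complex.exp_sub, vI, Complex.exp_log (div_ne_zero e2 e3)]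
      have e5 : Complex.exp (-((3 - (m : ℂ)) * s)) = Complex.exp (-((3 + (m : ℂ)) * s)) *
          Complex.exp (2 * m * s) := by
        rw [← Complex.exp_add]; congr 1; ring
      rw [e5]
      have e6 : Complex.exp (-((3 + (m : ℂ)) * s)) ≠ 0 := Complex.exp_ne_zero _
      have e7 : Complex.exp (2 * m * s) ≠ 0 := Complex.exp_ne_zero _
      field_simp
    have e8 : vI m (-s) = Complex.log (Ex ((3 + (m : ℂ)) * -s) / Ex ((3 - (m : ℂ)) * -s)) := rfl
    rw [e8, e4]
    exact Complex.log_exp (abs_lt.1 e1).1 (abs_lt.1 e1).2.le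
  have hb0 : 2 * I * d ≠ 0 := mul_ne_zero (by simp) hD0
  have hs : Tendsto (fun s : ℂ => 3 * s / (I * a * d)) (𝓝 0) (𝓝 0) := by
    have : ContinuousAt (fun s : ℂ => 3 * s / (I * a * d)) 0 := by fun_prop
    simpa using this.tendsto
  refine ⟨fun A => HH Q 0 ((A - 0) / (2 * I * d)), germ_an T 0 0 _, germ_ne T 0 0 hb0, ?_, ?_⟩
  · have h1 : Tendsto (fun A : ℂ => A / (2 * I * d)) (𝓝 0) (𝓝 0) := by
      have : ContinuousAt (fun A : ℂ => A / (2 * I * d)) 0 := by fun_prop
      simpa using this.tendsto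
    filter_upwards [odd_comp T 0 h1] with A hA
    rw [sub_zero, sub_zero, neg_div]
    exact hA
  · have ho : Tendsto (fun s : ℂ => vI m (-s) / (2 * I * d)) (𝓝 0) (𝓝 0) := by
      have h1 : ContinuousAt (fun s : ℂ => vI m (-s)) 0 := by
        unfold vI
        refine ContinuousAt.clog ?_ ?_
        · refine ContinuousAt.div ?_ ?_ ?_
          · exact (continuous_Ex.comp (by fun_prop : Continuous fun s : ℂ => (3 + (m : ℂ)) * -s)).continuousAt
          · exact (continuous_Ex.comp (by fun_prop : Continuous fun s : ℂ => (3 - (m : ℂ)) * -s)).continuousAt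
          · simp [Ex_zero]
        · simp [Ex_zero]
      have : ContinuousAt (fun s : ℂ => vI m (-s) / (2 * I * d)) 0 := by fun_prop
      simpa [vI, Ex_zero] using this.tendsto
    filter_upwards [hs.eventually (master T 0), hs.eventually key, hvI, odd_comp T 0 ho] with s
      e1 e2 e3 e4
    rw [hzp, hka, hrh] at e1
    have e5 : I * (a + 1) * d * (3 * s / (I * a * d)) = (3 + m) * s := by
      have : (m : ℂ) = 3 / a := by rw [← hma]; field_simp
      rw [this]
      field_simp
    have e6 : I * (a - 1) * d * (3 * s / (I * a * d)) = (3 - m) * s := by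
      have : (m : ℂ) = 3 / a := by rw [← hma]; field_simp
      rw [this]
      field_simp
    rw [e5, e6] at e2
    have e7 : et N D 0 (3 * s / (I * a * d)) = vI m s / (2 * I * d) := by
      rw [eq_div_iff hb0, mul_comm, e2]
      rfl
    have e8 : (3 * s / (I * a * d) - et N D 0 (3 * s / (I * a * d))) / 1 =
        -(vI m (-s) / (2 * I * d)) := by
      rw [e7, e3]
      have : (m : ℂ) = 3 / a := by rw [← hma]; field_simp
      rw [this]
      field_simp
      ring
    have e9 : Complex.exp (I * a * d * (3 * s / (I * a * d))) = Complex.exp (3 * s) := by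
      congr 1
      field_simp
    rw [e8, e4] at e1
    beta_reduce at e1
    rw [e9, e7] at e1
    rw [sub_zero, sub_zero, e1]
    ring

end Vale.Agent.P097.H439.Rat
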