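import Vale.Agent.P097.H439.Rat.Master

/-! # P097 / RAT-D0: the master law at every point of the plane -/

set_option linter.all false

open Complex Metric Filter Topology Set

namespace Vale.Agent.P097.H439.Rat

open Vale.Agent.P097.H402.Rat Vale.Agent.P097.H202 Vale.Agent.P097.TA

/-- `HH Q z η / η ^ 3` -/
noncomputable def KK (Q : ℕ → Polynomial ℂ) (z η : ℂ) : ℂ := ∑' m, (Q (m + 3)).eval z * η ^ m

/-- `E(φ, D(z) η) / D(z) ^ 3` -/
noncomputable def HH (Q : ℕ → Polynomial ℂ) (z η : ℂ) : ℂ := η ^ 3 * KK Q z η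

variable {R : ℂ → ℂ} {δ : ℝ} {E ξ X : ℂ → ℂ → ℂ} {N D : Polynomial ℂ} {Q : ℕ → Polynomial ℂ}
  {C : ℝ}

theorem an_KK (T : Dat R δ E ξ X N D Q C) : An (KK Q) := by
  intro z₀
  set M := max N.natDegree D.natDegree with hM
  set μ : ℝ := ‖z₀‖ + 1 with hμ
  have hμ1 : 1 ≤ μ := by have := norm_nonneg z₀; linarith
  have hC := T.hC
  set ρ : ℝ := 1 / (2 * C * μ ^ M) with hρ
  have hρ0 : 0 < ρ := by positivity
  have hU : IsOpen (ball z₀ 1 ×ˢ ball (0 : ℂ) ρ) := isOpen_ball.prod isOpen_ball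
  refine P268.analyticAt_of_differentiableOn hU ?_ ⟨mem_ball_self one_pos, mem_ball_self hρ0⟩
  refine H490.diffOn_tsum hU (u := fun m : ℕ => C ^ 3 * (1 / 2 : ℝ) ^ m) ?_ ?_ ?_
  · exact (summable_geometric_of_lt_one (by norm_num) (by norm_num)).mul_left _
  · intro m
    apply Differentiable.differentiableOn
    have h1 : Differentiable ℂ fun p : ℂ × ℂ => (Q (m + 3)).eval p.1 :=
      (Q (m + 3)).differentiable.comp differentiable_fst
    exact h1.mul (differentiable_snd.pow m)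
  · rintro m ⟨z, η⟩ ⟨hz, hη⟩
    simp only at hz hη ⊢
    rw [mem_ball_zero_iff] at hη
    have hz1 : ‖z‖ ≤ μ := by
      rw [mem_ball, dist_eq_norm] at hz
      have := norm_add_le (z - z₀) z₀
      rw [sub_add_cancel] at this
      linarith
    have h1 := T.bd (m + 3) z
    rw [norm_mul, norm_pow]
    have h2 : max 1 ‖z‖ ^ ((m + 3 - 3) * M) ≤ (μ ^ M) ^ m := by
      rw [Nat.add_sub_cancel, mul_comm m M, pow_mul]
      have : max 1 ‖z‖ ≤ μ := max_le hμ1 hz1
      gcongr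
    calc ‖(Q (m + 3)).eval z‖ * ‖η‖ ^ m ≤ (C ^ (m + 3) * (μ ^ M) ^ m) * ρ ^ m := by
          gcongr
          exact h1.trans (by gcongr)
      _ = C ^ 3 * (C * μ ^ M * ρ) ^ m := by rw [mul_pow, mul_pow, pow_add]; ring
      _ = C ^ 3 * (1 / 2) ^ m := by
          congr 2
          rw [hρ]
          field_simp

theorem an_HH (T : Dat R δ E ξ X N D Q C) : An (HH Q) := (An.snd.pow 3).mul (an_KK T)

theorem KK_zero (T : Dat R δ E ξ X N D Q C) (z : ℂ) : KK Q z 0 = 2 / 3 := by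
  unfold KK
  rw [tsum_eq_single 0]
  · simp [T.pol.Q3]
  · intro m hm
    simp [hm]

/-- `HH Q z` is not zero near `0` -/
theorem HH_ne (T : Dat R δ E ξ X N D Q C) (z : ℂ) : ¬ ∀ᶠ η in 𝓝 (0 : ℂ), HH Q z η = 0 := by
  intro h
  have h1 : ContinuousAt (KK Q z) 0 := ((an_KK T).at z).continuousAt
  have h2 : ∀ᶠ η in 𝓝[≠] (0 : ℂ), KK Q z η = 0 := by
    filter_upwards [nhdsWithin_le_nhds h, self_mem_nhdsWithin] with η hη h0
    rw [HH] at hη
    exact (mul_eq_zero.1 hη).resolve_left (pow_ne_zero 3 h0)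
  have h3 : Tendsto (KK Q z) (𝓝[≠] 0) (𝓝 0) :=
    (tendsto_const_nhds (x := (0 : ℂ))).congr' (by
      filter_upwards [h2] with η hη using hη.symm)
  have h4 := tendsto_nhds_unique (h1.tendsto.mono_left nhdsWithin_le_nhds) h3
  rw [KK_zero T] at h4
  norm_num at h4

theorem D_ez (T : Dat R δ E ξ X N D Q C) (φ : ℝ) : D.eval (ez φ) ≠ 0 := by
  refine T.rat.D0 _ ?_
  rw [ez, mul_comm]
  exact Complex.norm_exp_ofReal_mul_I φ

theorem BX_y {δ : ℝ} (hδ : 0 < δ) (φ : ℝ) : ∀ y ∈ ball (0 : ℂ) δ, ((φ : ℂ), y) ∈ BX δ := by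
  intro y hy
  refine ⟨by simpa using hδ, by simpa using hy⟩

/-- Taylor series of the pencil Hamiltonian -/
theorem E_eq (T : Dat R δ E ξ X N D Q C) (φ : ℝ) (η : ℂ) (h : ‖D.eval (ez φ) * η‖ < δ) :
    E φ (D.eval (ez φ) * η) = D.eval (ez φ) ^ 3 * HH Q (ez φ) η := by
  have hδ := T.pen.hδ
  have hd : DifferentiableOn ℂ (fun y => E φ y) (ball 0 δ) :=
    T.pen.jE.differentiableOn_e (BX_y hδ φ)
  have h1 := Complex.hasSum_taylorSeries_on_ball hd (z := D.eval (ez φ) * η)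
    (by simpa using h)
  have hD := D_ez T φ
  set d := D.eval (ez φ) with hdd
  have key : ∀ m : ℕ, ((m.factorial : ℂ)⁻¹ • (d * η - 0) ^ m • iteratedDeriv m (fun y => E φ y) 0)
      = d ^ 3 * ((Q m).eval (ez φ) * η ^ m) := by
    intro m
    have h2 := T.pol.eq m φ
    rw [← hdd] at h2
    have h3 : co E m φ * d ^ m = d ^ 3 * (Q m).eval (ez φ) := by
      rcases lt_or_ge m 3 with h4 | h4
      · rw [T.pol.Q2 m h4] at h2 ⊢
        rw [Nat.sub_eq_zero_of_le h4.le] at h2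
        simp only [pow_zero, mul_one, Polynomial.eval_zero] at h2
        rw [h2]; simp
      · obtain ⟨k, rfl⟩ : ∃ k, m = k + 3 := ⟨m - 3, by omega⟩
        rw [Nat.add_sub_cancel] at h2
        rw [← h2]; ring
    rw [smul_eq_mul, smul_eq_mul, sub_zero, mul_pow]
    rw [co] at h3
    linear_combination (η ^ m) * h3
  simp only [key] at h1
  have h5 := (hasSum_nat_add_iff' 3).2 h1
  have h6 : ∑ i ∈ Finset.range 3, d ^ 3 * ((Q i).eval (ez φ) * η ^ i) = 0 := by
    refine Finset.sum_eq_zero fun i hi => ?_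
    rw [T.pol.Q2 i (Finset.mem_range.1 hi)]
    simp
  rw [h6, sub_zero] at h5
  rw [← h5.tsum_eq, HH, KK, ← mul_assoc, ← tsum_mul_left]
  refine tsum_congr fun m => ?_
  ring

theorem exists_ez {z : ℂ} (hz : ‖z‖ = 1) : ∃ φ : ℝ, ez φ = z := by
  refine ⟨Complex.arg z, ?_⟩
  have := Complex.norm_mul_exp_arg_mul_I z
  rw [hz] at this
  rw [ez, mul_comm]
  simpa using this

theorem zp_ez (φ x : ℝ) (hD : D.eval (ez φ) ≠ 0) :
    zp D (ez φ) (x / D.eval (ez φ)) = ez ((φ + x : ℝ) : ℂ) := by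
  rw [zp, ez, ez, ← Complex.exp_add]
  congr 1
  rw [ez] at hD
  push_cast
  field_simp

/-- ratio of curvature radii on the real axis -/
theorem R_ratio (T : Dat R δ E ξ X N D Q C) (φ : ℝ) : ∃ r > 0, ∀ x : ℝ, |x| < r →
    R ((φ + x : ℝ) : ℂ) = R φ * rh N D (ez φ) (x / D.eval (ez φ)) := by
  have hD := D_ez T φ
  set z := ez φ with hz
  set d := D.eval z with hd
  have h1 := PI_hasDerivAt ((an_g1 N D).at z)
  have h2 : ∀ᶠ t in 𝓝 (0 : ℂ), ka D z t ≠ 0 :=
    ((an_ka D).at z).continuousAt.eventually_ne (by rw [ka_zero]; exact one_ne_zero)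
  have h3 : Tendsto (fun x : ℝ => (x : ℂ) / d) (𝓝 0) (𝓝 0) := by
    have : ContinuousAt (fun x : ℝ => (x : ℂ) / d) 0 := by fun_prop
    simpa using this.tendsto
  obtain ⟨r, hr, hb⟩ := Metric.eventually_nhds_iff_ball.1 (h3.eventually (h1.and h2))
  refine ⟨r, hr, ?_⟩
  set q : ℝ → ℂ := fun x => R ((φ + x : ℝ) : ℂ) *
    Complex.exp (-((x : ℂ) / d * PI (g1 N D z) (x / d))) with hq
  have hder : ∀ x ∈ ball (0 : ℝ) r, HasDerivAt q 0 x := by
    intro x hx
    obtain ⟨hx1, hx2⟩ := hb x hx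
    have hstr : ((φ + x : ℝ) : ℂ) ∈ Str δ := by
      rw [mem_Str]; simpa using T.pen.hδ
    have d1 : HasDerivAt (fun x : ℝ => R ((φ + x : ℝ) : ℂ)) (deriv R ((φ + x : ℝ) : ℂ)) x := by
      have h4 : HasDerivAt R (deriv R ((φ + x : ℝ) : ℂ)) ((φ + x : ℝ) : ℂ) :=
        (T.pen.dR.differentiableAt ((isOpen_Str δ).mem_nhds hstr)).hasDerivAt
      have h5 := h4.comp_ofReal
      exact h5.comp_const_add φ x
    have d2 : HasDerivAt (fun x : ℝ => (x : ℂ) / d) (1 / d) x := by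
      exact (Complex.ofRealCLM.hasDerivAt (x := x)).div_const d
    have d3 : HasDerivAt (fun x : ℝ => (x : ℂ) / d * PI (g1 N D z) (x / d))
        (g1 N D z (x / d) * (1 / d)) x :=
      HasDerivAt.comp (h₂ := fun t => t * PI (g1 N D z) t) (h := fun x : ℝ => (x : ℂ) / d) x hx1 d2
    have d4 := d1.mul (d3.neg.cexp)
    refine d4.congr_deriv ?_
    have hzp : zp D z (x / d) = ez ((φ + x : ℝ) : ℂ) := zp_ez φ x hD
    have hka := ka_spec D z (x / d)
    rw [hzp, ← hd] at hka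
    have hode := T.rat.ode (φ + x)
    have hD' := D_ez T (φ + x)
    rw [g1, hzp]
    have e1 : N.eval (ez ((φ + x : ℝ) : ℂ)) / ka D z (x / d) * (1 / d) =
        N.eval (ez ((φ + x : ℝ) : ℂ)) / D.eval (ez ((φ + x : ℝ) : ℂ)) := by
      rw [hka]
      field_simp
    rw [e1]
    have e2 : deriv R ((φ + x : ℝ) : ℂ) = N.eval (ez ((φ + x : ℝ) : ℂ)) /
        D.eval (ez ((φ + x : ℝ) : ℂ)) * R ((φ + x : ℝ) : ℂ) := by
      field_simp
      exact hode
    rw [e2]
    ring
  intro x hx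
  have hx' : x ∈ ball (0 : ℝ) r := by simpa using hx
  have hconst := (isOpen_ball (x := (0 : ℝ)) (ε := r)).is_const_of_deriv_eq_zero
    (convex_ball (0 : ℝ) r).isPreconnected
    (fun x hx => (hder x hx).differentiableAt.differentiableWithinAt)
    (fun x hx => (hder x hx).deriv) hx' (mem_ball_self hr)
  have h6 : q 0 = R φ := by simp [hq]
  rw [h6] at hconst
  rw [← hconst, rh]
  simp only [hq]
  rw [mul_assoc, ← Complex.exp_add]
  simp

/-- the master law -/
theorem master (T : Dat R δ E ξ X N D Q C) (z : ℂ) : ∀ᶠ t in 𝓝 (0 : ℂ),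
    HH Q z (et N D z t) = rh N D z t * ka D z t ^ 3 *
      HH Q (zp D z t) ((t - et N D z t) / ka D z t) := by
  have hA : An fun z t => HH Q z (et N D z t) - rh N D z t * ka D z t ^ 3 *
      HH Q (zp D z t) ((t - et N D z t) / ka D z t) := by
    have h1 : An fun z t => HH Q z (et N D z t) :=
      (an_HH T).comp₂ An.fst (an_et N D) fun z => et_zero N D z
    have h2 : An fun z t => (t - et N D z t) / ka D z t :=
      (An.snd.sub (an_et N D)).div (an_ka D) fun z => by rw [ka_zero]; exact one_ne_zero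
    have h3 : An fun z t => HH Q (zp D z t) ((t - et N D z t) / ka D z t) :=
      (an_HH T).comp₂ (an_zp D) h2 fun z => by rw [et_zero]; simp
    exact h1.sub (((an_rh N D).mul ((an_ka D).pow 3)).mul h3)
  have key := hA.ident ?_ z
  · filter_upwards [key] with t ht using sub_eq_zero.1 ht
  intro w hw
  obtain ⟨φ, rfl⟩ := exists_ez hw
  have hD := D_ez T φ
  set d := D.eval (ez φ) with hd
  have hδ := T.pen.hδ
  have h3 : Tendsto (fun x : ℝ => (x : ℂ) / d) (𝓝 0) (𝓝 0) := by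
    have : ContinuousAt (fun x : ℝ => (x : ℂ) / d) 0 := by fun_prop
    simpa using this.tendsto
  have h3' : Tendsto (fun x : ℝ => (x : ℂ) / d) (𝓝[≠] 0) (𝓝[≠] 0) := by
    rw [tendsto_nhdsWithin_iff]
    refine ⟨h3.mono_left nhdsWithin_le_nhds, ?_⟩
    filter_upwards [self_mem_nhdsWithin] with x hx
    exact div_ne_zero (by exact_mod_cast hx) hD
  refine h3'.frequently (p := fun t => HH Q (ez φ) (et N D (ez φ) t) -
    rh N D (ez φ) t * ka D (ez φ) t ^ 3 *
      HH Q (zp D (ez φ) t) ((t - et N D (ez φ) t) / ka D (ez φ) t) = 0) ?_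
  apply Filter.Eventually.frequently
  refine nhdsWithin_le_nhds ?_
  -- conditions
  have c1 := h3.eventually (chord_eq N D (ez φ))
  have c2 : ∀ᶠ t in 𝓝 (0 : ℂ), ka D (ez φ) t ≠ 0 :=
    ((an_ka D).at _).continuousAt.eventually_ne (by rw [ka_zero]; exact one_ne_zero)
  have c3 : ∀ᶠ t in 𝓝 (0 : ℂ), ‖d * et N D (ez φ) t‖ < δ := by
    have : ContinuousAt (fun t => ‖d * et N D (ez φ) t‖) 0 := by
      have := ((an_et N D).at (ez φ)).continuousAt
      fun_prop
    exact this.eventually (gt_mem_nhds (by simpa [et_zero] using hδ))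
  have c4 : ∀ᶠ t in 𝓝 (0 : ℂ), ‖d * t - d * et N D (ez φ) t‖ < δ := by
    have : ContinuousAt (fun t => ‖d * t - d * et N D (ez φ) t‖) 0 := by
      have := ((an_et N D).at (ez φ)).continuousAt
      fun_prop
    exact this.eventually (gt_mem_nhds (by simpa [et_zero] using hδ))
  obtain ⟨r, hr, hR⟩ := R_ratio T φ
  have c5 : ∀ᶠ x : ℝ in 𝓝 0, |x| < r := by
    have : ContinuousAt (fun x : ℝ => |x|) 0 := by fun_prop
    exact this.eventually (gt_mem_nhds (by simpa using hr))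
  have c6 : ∀ᶠ x : ℝ in 𝓝 0, |x| < δ := by
    have : ContinuousAt (fun x : ℝ => |x|) 0 := by fun_prop
    exact this.eventually (gt_mem_nhds (by simpa using hδ))
  filter_upwards [c1, h3.eventually c2, h3.eventually c3, h3.eventually c4, c5, c6] with x x1 x2 x3 x4
    x5 x6
  set t : ℂ := (x : ℂ) / d with ht
  have hdt : d * t = x := by rw [ht]; field_simp
  rw [hdt] at x4
  set y : ℂ := d * et N D (ez φ) t with hy
  have hch : Chord R φ x y := by
    unfold Chord
    rw [← mul_zero (R φ), ← x1, ← intervalIntegral.integral_const_mul]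
    refine intervalIntegral.integral_congr fun s hs => ?_
    rw [uIcc_of_le zero_le_one] at hs
    have h7 := hR (s * x) (by
      rw [abs_mul, abs_of_nonneg hs.1]
      exact (mul_le_of_le_one_left (abs_nonneg _) hs.2).trans_lt x5)
    have h8 : (φ : ℂ) + s * x = ((φ + s * x : ℝ) : ℂ) := by push_cast; ring
    have h9 : ((s * x : ℝ) : ℂ) / d = s * t := by rw [ht]; push_cast; ring
    rw [h8, h7, h9, ← hd, hdt]
    ring
  have law := T.pen.chord φ x y (by simpa using hδ) (by simpa using hδ) (by simpa using x6) x3 x4 hch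
  have hx0 : ((φ : ℂ) + x) = ((φ + x : ℝ) : ℂ) := by push_cast; ring
  have hzp : zp D (ez φ) t = ez ((φ + x : ℝ) : ℂ) := zp_ez φ x hD
  have hka := ka_spec D (ez φ) t
  rw [hzp, ← hd] at hka
  have e1 := E_eq T φ (et N D (ez φ) t) x3
  have e2 := E_eq T (φ + x) ((t - et N D (ez φ) t) / ka D (ez φ) t) (by
    rw [hka]
    have : d * ka D (ez φ) t * ((t - et N D (ez φ) t) / ka D (ez φ) t) = x - y := by
      rw [hy, ← hdt]
      field_simp
    rw [this]
    exact x4)
  have e3 : D.eval (ez ((φ + x : ℝ) : ℂ)) * ((t - et N D (ez φ) t) / ka D (ez φ) t) = x - y := by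
    rw [hka, hy, ← hdt]
    field_simp
  rw [e3] at e2
  rw [← hd, ← hy] at e1
  have e4 : R ((φ + x : ℝ) : ℂ) = R φ * rh N D (ez φ) t := hR x x5
  rw [hx0, e1, e2, e4, hka] at law
  have hRφ : R φ ≠ 0 := T.pen.R0 _ (by rw [mem_Str]; simpa using hδ)
  rw [hzp]
  have h10 : R φ * d ^ 3 ≠ 0 := mul_ne_zero hRφ (pow_ne_zero 3 hD)
  apply mul_left_cancel₀ h10
  linear_combination law

/-- oddness -/
theorem oddness (T : Dat R δ E ξ X N D Q C) (z : ℂ) : ∀ᶠ t in 𝓝 (0 : ℂ),
    HH Q z (-t) = -HH Q z t := by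
  have hA : An fun z t => HH Q z (-t) + HH Q z t :=
    ((an_HH T).comp₂ An.fst An.snd.neg fun z => by simp).add (an_HH T)
  have key := hA.ident ?_ z
  · filter_upwards [key] with t ht using eq_neg_of_add_eq_zero_left ht
  intro w hw
  obtain ⟨φ, rfl⟩ := exists_ez hw
  have hD := D_ez T φ
  have hδ := T.pen.hδ
  apply Filter.Eventually.frequently
  refine nhdsWithin_le_nhds ?_
  have c3 : ∀ᶠ t in 𝓝 (0 : ℂ), ‖D.eval (ez φ) * t‖ < δ := by
    have : ContinuousAt (fun t => ‖D.eval (ez φ) * t‖) 0 := by fun_prop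
    exact this.eventually (gt_mem_nhds (by simpa using hδ))
  filter_upwards [c3] with t ht
  have e1 := E_eq T φ t ht
  have e2 := E_eq T φ (-t) (by simpa using ht)
  have e3 := T.pen.odd φ (D.eval (ez φ) * t) ⟨by simpa using hδ, ht⟩
  rw [mul_neg, e3, e1] at e2
  have h10 : D.eval (ez φ) ^ 3 ≠ 0 := pow_ne_zero 3 hD
  apply mul_left_cancel₀ h10
  linear_combination -e2

end Vale.Agent.P097.H439.Rat
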