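import Vale.Agent.P097.H439.Rat.Tools
import Vale.Agent.P097.H490.Par

/-! # P097 / RAT-D0: the pencil law in the variables `(z, η)`, `y = D(z) η`

All functions are holomorphic near `ℂ × {0}`, zeros of `D` and `z = 0` included. -/

set_option linter.all false

open Complex Metric Filter Topology Set

namespace Vale.Agent.P097.H439.Rat

open Vale.Agent.P097.H402.Rat

/-! ## elementary functions -/

theorem mul_Ex (w : ℂ) : w * Ex w = Complex.exp w - 1 := by
  unfold Ex
  split_ifs with h
  · simp [h]
  · field_simp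

theorem Ex_eq_dslope : Ex = dslope Complex.exp 0 := by
  funext w
  rcases eq_or_ne w 0 with rfl | hw
  · simp [Ex, dslope_same]
  · rw [dslope_of_ne _ hw, slope_def_field, Ex, if_neg hw]
    simp

theorem differentiable_Ex : Differentiable ℂ Ex := by
  rw [Ex_eq_dslope]
  intro w
  have := (Complex.differentiableOn_dslope (f := Complex.exp) (c := 0) (s := univ)
    univ_mem).2 Complex.differentiable_exp.differentiableOn
  exact this.differentiableAt univ_mem

theorem analyticAt_Ex (w : ℂ) : AnalyticAt ℂ Ex w := differentiable_Ex.analyticAt w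

/-- `sin w / w` -/
noncomputable def sn : ℂ → ℂ := dslope Complex.sin 0

theorem mul_sn (w : ℂ) : w * sn w = Complex.sin w := by
  have := sub_smul_dslope Complex.sin 0 w
  simpa [sn] using this

theorem sn_zero : sn 0 = 1 := by simp [sn, dslope_same]

theorem analyticAt_sn (w : ℂ) : AnalyticAt ℂ sn w := by
  have := (Complex.differentiableOn_dslope (f := Complex.sin) (c := 0) (s := univ)
    univ_mem).2 Complex.differentiable_sin.differentiableOn
  have h : Differentiable ℂ sn := fun w => this.differentiableAt univ_mem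
  exact h.analyticAt w

/-- `log (1 + w) / w` -/
noncomputable def L1 : ℂ → ℂ := dslope (fun w => Complex.log (1 + w)) 0

theorem mul_L1 (w : ℂ) : w * L1 w = Complex.log (1 + w) := by
  have := sub_smul_dslope (fun w => Complex.log (1 + w)) 0 w
  simpa [L1] using this

theorem L1_zero : L1 0 = 1 := by
  have h : HasDerivAt (fun w : ℂ => Complex.log (1 + w)) 1 0 := by
    have h1 : HasDerivAt (fun w : ℂ => 1 + w) 1 0 := (hasDerivAt_id (0 : ℂ)).const_add 1
    have h2 := h1.clog (by simp)
    simpa using h2
  rw [L1, dslope_same, h.deriv]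

theorem analyticAt_L1 : AnalyticAt ℂ L1 0 := by
  have h : AnalyticAt ℂ (fun w : ℂ => Complex.log (1 + w)) 0 := by
    refine AnalyticAt.clog (by fun_prop) ?_
    simp
  obtain ⟨p, hp⟩ := h
  exact hp.has_fpower_series_dslope_fslope.analyticAt

/-! ## the functions -/

variable (N D : Polynomial ℂ)

/-- `(D (z + w) - D z) / w` -/
noncomputable def D1 (z w : ℂ) : ℂ :=
  ∑ k ∈ Finset.range D.natDegree, (Polynomial.hasseDeriv (k + 1) D).eval z * w ^ k

theorem D1_spec (z w : ℂ) : D.eval (z + w) = D.eval z + w * D1 D z w := by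
  have h1 : D.eval (z + w) = (Polynomial.taylor z D).eval w := by
    rw [Polynomial.taylor_eval, add_comm]
  rw [h1, Polynomial.eval_eq_sum_range, Polynomial.natDegree_taylor, Finset.sum_range_succ']
  simp only [Polynomial.taylor_coeff, pow_zero, mul_one, Polynomial.hasseDeriv_zero,
    LinearMap.id_coe, id_eq, D1, Finset.mul_sum]
  rw [add_comm]
  congr 1
  refine Finset.sum_congr rfl fun k _ => ?_
  ring

theorem D1_zero (z : ℂ) : D1 D z 0 = (Polynomial.derivative D).eval z := by
  unfold D1
  rcases Nat.eq_zero_or_pos D.natDegree with h | h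
  · rw [h, Finset.sum_range_zero]
    rw [Polynomial.natDegree_eq_zero] at h
    obtain ⟨c, rfl⟩ := h
    simp
  · obtain ⟨n, hn⟩ : ∃ n, D.natDegree = n + 1 := ⟨D.natDegree - 1, by omega⟩
    rw [hn, Finset.sum_range_succ']
    simp [Polynomial.hasseDeriv_one]

/-- `z exp (i D(z) t)` -/
noncomputable def zp (z t : ℂ) : ℂ := z * Complex.exp (I * D.eval z * t)

/-- `D (z') / D z` -/
noncomputable def ka (z t : ℂ) : ℂ :=
  1 + I * z * t * Ex (I * D.eval z * t) * D1 D z (zp D z t - z)

theorem ka_spec (z t : ℂ) : D.eval (zp D z t) = D.eval z * ka D z t := by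
  have h := D1_spec D z (zp D z t - z)
  rw [add_sub_cancel] at h
  rw [h, ka]
  have h2 : zp D z t - z = D.eval z * (I * z * t * Ex (I * D.eval z * t)) := by
    have := mul_Ex (I * D.eval z * t)
    unfold zp
    linear_combination (-z) * this
  generalize hu : D1 D z (zp D z t - z) = u
  rw [h2]
  ring

theorem zp_zero (z : ℂ) : zp D z 0 = z := by simp [zp]

theorem ka_zero (z : ℂ) : ka D z 0 = 1 := by simp [ka]

theorem an_zp : An (zp D) := by
  refine An.fst.mul (An.exp ?_)
  exact ((An.const I).mul (An.poly D An.fst)).mul An.snd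

theorem an_ka : An (ka D) := by
  have h1 : An fun z t => I * D.eval z * t := ((An.const I).mul (An.poly D An.fst)).mul An.snd
  have h2 : An fun z t => D1 D z (zp D z t - z) := by
    unfold D1
    refine An.sum _ fun k _ => ?_
    exact (An.poly _ An.fst).mul (((an_zp D).sub An.fst).pow k)
  refine (An.const 1).add ?_
  exact ((((An.const I).mul An.fst).mul An.snd).mul (h1.comp fun z => analyticAt_Ex _)).mul h2

/-- logarithmic derivative of the curvature radius in the variable `t` -/
noncomputable def g1 (z t : ℂ) : ℂ := N.eval (zp D z t) / ka D z t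

/-- ratio of curvature radii -/
noncomputable def rh (z t : ℂ) : ℂ := Complex.exp (t * PI (g1 N D z) t)

noncomputable def gp (z t : ℂ) : ℂ := rh N D z t * (t * sn (D.eval z * t))

noncomputable def gm (z t : ℂ) : ℂ := rh N D z t * Complex.exp (-(I * D.eval z * t))

noncomputable def T2 (z t : ℂ) : ℂ := PI (gp N D z) t / PI (gm N D z) t

/-- normalised direction of the chord -/
noncomputable def et (z t : ℂ) : ℂ := T2 N D z t * L1 (2 * I * D.eval z * T2 N D z t)

theorem an_g1 : An (g1 N D) :=
  (An.poly N (an_zp D)).div (an_ka D) fun z => by rw [ka_zero]; exact one_ne_zero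

theorem an_rh : An (rh N D) := An.exp (An.snd.mul (an_g1 N D).PI)

theorem rh_zero (z : ℂ) : rh N D z 0 = 1 := by simp [rh]

theorem an_gp : An (gp N D) := by
  refine (an_rh N D).mul (An.snd.mul ?_)
  exact ((An.poly D An.fst).mul An.snd).comp fun z => analyticAt_sn _

theorem an_gm : An (gm N D) :=
  (an_rh N D).mul (An.exp (((An.const I).mul (An.poly D An.fst)).mul An.snd).neg)

theorem PI_gm_zero (z : ℂ) : PI (gm N D z) 0 = 1 := by simp [PI_zero, gm, rh_zero]

theorem an_T2 : An (T2 N D) :=
  (an_gp N D).PI.div (an_gm N D).PI fun z => by rw [PI_gm_zero]; exact one_ne_zero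

theorem T2_zero (z : ℂ) : T2 N D z 0 = 0 := by simp [T2, PI_zero, gp]

theorem an_et : An (et N D) := by
  refine (an_T2 N D).mul ?_
  refine (((An.const (2 * I)).mul (An.poly D An.fst)).mul (an_T2 N D)).comp fun z => ?_
  simp only [T2_zero, mul_zero]
  exact analyticAt_L1

theorem et_zero (z : ℂ) : et N D z 0 = 0 := by simp [et, T2_zero]

/-- the chord equation -/
theorem exp_et (z : ℂ) : ∀ᶠ t in 𝓝 0, Complex.exp (2 * I * (D.eval z * et N D z t)) =
    1 + 2 * I * D.eval z * T2 N D z t := by
  have h1 : ContinuousAt (fun t => 1 + 2 * I * D.eval z * T2 N D z t) 0 := by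
    have := ((an_T2 N D).at z).continuousAt
    fun_prop
  have h2 : ∀ᶠ t in 𝓝 0, 1 + 2 * I * D.eval z * T2 N D z t ≠ 0 := by
    refine h1.eventually_ne ?_
    simp [T2_zero]
  filter_upwards [h2] with t ht
  have h3 : 2 * I * (D.eval z * et N D z t) = Complex.log (1 + 2 * I * D.eval z * T2 N D z t) := by
    rw [← mul_L1, et]
    ring
  rw [h3, Complex.exp_log ht]

theorem chord_eq (z : ℂ) : ∀ᶠ t in 𝓝 0,
    ∫ s in (0 : ℝ)..1, rh N D z (s * t) * Complex.sin (s * (D.eval z * t) - D.eval z * et N D z t)
      = 0 := by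
  have hW : ∀ᶠ t in 𝓝 0, PI (gm N D z) t ≠ 0 := by
    refine ((an_gm N D).PI.at z).continuousAt.eventually_ne ?_
    rw [PI_gm_zero]; exact one_ne_zero
  obtain ⟨r, hr, hb⟩ := Metric.eventually_nhds_iff_ball.1
    (((an_gp N D).at z).eventually_analyticAt.and ((an_gm N D).at z).eventually_analyticAt)
  filter_upwards [hW, exp_et N D z, ball_mem_nhds (0 : ℂ) hr] with t ht he htr
  set y : ℂ := D.eval z * et N D z t with hy
  have hmem : ∀ s ∈ Icc (0 : ℝ) 1, (s : ℂ) * t ∈ ball (0 : ℂ) r := by
    intro s hs
    rw [mem_ball_zero_iff] at htr ⊢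
    rw [norm_mul, Complex.norm_of_nonneg hs.1]
    exact (mul_le_of_le_one_left (norm_nonneg _) hs.2).trans_lt htr
  have hp : IntervalIntegrable (fun s : ℝ => gp N D z (s * t)) MeasureTheory.volume 0 1 := by
    refine ContinuousOn.intervalIntegrable ?_
    rw [uIcc_of_le zero_le_one]
    intro s hs
    have h1 := (hb _ (hmem s hs)).1.continuousAt
    exact (ContinuousAt.comp (f := fun s : ℝ => (s : ℂ) * t) h1
      (by fun_prop)).continuousWithinAt
  have hm : IntervalIntegrable (fun s : ℝ => gm N D z (s * t)) MeasureTheory.volume 0 1 := by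
    refine ContinuousOn.intervalIntegrable ?_
    rw [uIcc_of_le zero_le_one]
    intro s hs
    have h1 := (hb _ (hmem s hs)).2.continuousAt
    exact (ContinuousAt.comp (f := fun s : ℝ => (s : ℂ) * t) h1
      (by fun_prop)).continuousWithinAt
  have key : ∀ s : ℝ, rh N D z (s * t) * Complex.sin (s * (D.eval z * t) - y) =
      (Complex.exp (-(I * y)) * D.eval z) * gp N D z (s * t) +
      ((Complex.exp (-(I * y)) - Complex.exp (I * y)) / (2 * I)) * gm N D z (s * t) := by
    intro s
    have e1 := mul_sn (D.eval z * (s * t))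
    set a : ℂ := D.eval z * (s * t) with ha
    have e2 : Complex.sin (s * (D.eval z * t) - y) =
        (Complex.exp (-(I * y)) * Complex.exp (I * a) - Complex.exp (I * y) *
          Complex.exp (-(I * a))) / (2 * I) := by
      rw [show (s : ℂ) * (D.eval z * t) - y = a - y by rw [ha]; ring, Complex.sin]
      rw [← Complex.exp_add, ← Complex.exp_add,
        show -(a - y) * I = I * y + -(I * a) by ring, show (a - y) * I = -(I * y) + I * a by ring]
      rw [div_eq_div_iff (by norm_num) (by simp)]
      linear_combination (Complex.exp (I * y + -(I * a)) - Complex.exp (-(I * y) + I * a)) * 2 * I_sq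
    have e3 : Complex.exp (I * a) = Complex.exp (-(I * a)) + 2 * I * Complex.sin a := by
      rw [Complex.sin]
      rw [show -a * I = -(I * a) by ring, show a * I = I * a by ring]
      linear_combination (Complex.exp (I * a) - Complex.exp (-(I * a))) * I_sq
    rw [e2, e3, gp, gm, ← ha]
    rw [show -(I * D.eval z * (↑s * t)) = -(I * a) by rw [ha]; ring]
    have e4 : D.eval z * ((s : ℂ) * t * sn a) = Complex.sin a := by rw [← e1, ha]; ring
    have hI : (2 * I : ℂ) ≠ 0 := by simp
    field_simp
    linear_combination (-2 * I * Complex.exp (-(I * y))) * rh N D z (s * t) * e4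
  simp only [key]
  rw [intervalIntegral.integral_add (hp.const_mul _) (hm.const_mul _),
    intervalIntegral.integral_const_mul, intervalIntegral.integral_const_mul]
  change Complex.exp (-(I * y)) * D.eval z * PI (gp N D z) t +
    (Complex.exp (-(I * y)) - Complex.exp (I * y)) / (2 * I) * PI (gm N D z) t = 0
  have e5 : Complex.exp (2 * I * y) = Complex.exp (I * y) * Complex.exp (I * y) := by
    rw [← Complex.exp_add]; congr 1; ring
  have e6 : Complex.exp (-(I * y)) * Complex.exp (I * y) = 1 := by
    rw [← Complex.exp_add]; simp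
  have e7 : T2 N D z t * PI (gm N D z) t = PI (gp N D z) t := by
    rw [T2, div_mul_cancel₀ _ ht]
  rw [e5] at he
  have hI : (2 * I : ℂ) ≠ 0 := by simp
  field_simp
  rw [← e7]
  linear_combination (-Complex.exp (-(I * y)) * PI (gm N D z) t) * he +
    PI (gm N D z) t * Complex.exp (I * y) * e6

end Vale.Agent.P097.H439.Rat
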