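import Vale.Agent.P097.H402.Rat.Defs

/-! # P097 / RAT: functions holomorphic near `ℂ × {0}` and the identity principle -/

set_option linter.all false

open Complex Metric Filter Topology Set

namespace Vale.Agent.P097.H439.Rat

open Vale.Agent.P097.H402.Rat

/-- holomorphic near `ℂ × {0}` -/
def An (f : ℂ → ℂ → ℂ) : Prop := ∀ z : ℂ, AnalyticAt ℂ (fun p : ℂ × ℂ => f p.1 p.2) (z, 0)

theorem An.snd : An fun _ t => t := fun _ => analyticAt_snd

theorem An.fst : An fun z _ => z := fun _ => analyticAt_fst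

theorem An.const (c : ℂ) : An fun _ _ => c := fun _ => analyticAt_const

theorem An.add {f g : ℂ → ℂ → ℂ} (hf : An f) (hg : An g) : An fun z t => f z t + g z t :=
  fun z => (hf z).add (hg z)

theorem An.sub {f g : ℂ → ℂ → ℂ} (hf : An f) (hg : An g) : An fun z t => f z t - g z t :=
  fun z => (hf z).sub (hg z)

theorem An.mul {f g : ℂ → ℂ → ℂ} (hf : An f) (hg : An g) : An fun z t => f z t * g z t :=
  fun z => (hf z).mul (hg z)

theorem An.pow {f : ℂ → ℂ → ℂ} (hf : An f) (n : ℕ) : An fun z t => f z t ^ n :=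
  fun z => (hf z).pow n

theorem An.neg {f : ℂ → ℂ → ℂ} (hf : An f) : An fun z t => -f z t :=
  fun z => (hf z).neg

theorem An.div {f g : ℂ → ℂ → ℂ} (hf : An f) (hg : An g) (h0 : ∀ z, g z 0 ≠ 0) :
    An fun z t => f z t / g z t :=
  fun z => (hf z).div (hg z) (h0 z)

theorem An.sum {f : ℕ → ℂ → ℂ → ℂ} (s : Finset ℕ) (h : ∀ k ∈ s, An (f k)) :
    An fun z t => ∑ k ∈ s, f k z t := by
  intro z
  have := Finset.analyticAt_fun_sum s (f := fun k (p : ℂ × ℂ) => f k p.1 p.2) (c := (z, 0))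
    (fun k hk => h k hk z)
  exact this

/-- composition with a function of one variable -/
theorem An.comp {f : ℂ → ℂ → ℂ} (hf : An f) {g : ℂ → ℂ} (hg : ∀ z, AnalyticAt ℂ g (f z 0)) :
    An fun z t => g (f z t) := fun z =>
  AnalyticAt.comp' (g := g) (f := fun p : ℂ × ℂ => f p.1 p.2) (x := (z, 0)) (hg z) (hf z)

/-- composition of functions of two variables -/
theorem An.comp₂ {F f g : ℂ → ℂ → ℂ} (hF : An F) (hf : An f) (hg : An g) (h0 : ∀ z, g z 0 = 0) :
    An fun z t => F (f z t) (g z t) := by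
  intro z
  have h1 : AnalyticAt ℂ (fun p : ℂ × ℂ => (f p.1 p.2, g p.1 p.2)) (z, 0) := (hf z).prod (hg z)
  have h2 : AnalyticAt ℂ (fun p : ℂ × ℂ => F p.1 p.2) ((fun p : ℂ × ℂ => (f p.1 p.2, g p.1 p.2)) (z, 0)) := by
    have := hF (f z 0)
    simpa [h0] using this
  exact AnalyticAt.comp' (x := (z, 0)) h2 h1

theorem An.poly (P : Polynomial ℂ) {f : ℂ → ℂ → ℂ} (hf : An f) : An fun z t => P.eval (f z t) := by
  refine hf.comp (g := fun w => P.eval w) fun z => ?_
  exact P.differentiable.analyticAt _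

theorem An.exp {f : ℂ → ℂ → ℂ} (hf : An f) : An fun z t => Complex.exp (f z t) :=
  hf.comp fun z => Complex.differentiable_exp.analyticAt _

/-- sections -/
theorem An.at {f : ℂ → ℂ → ℂ} (hf : An f) (z : ℂ) : AnalyticAt ℂ (f z) 0 := by
  have h1 : AnalyticAt ℂ (fun t : ℂ => (z, t)) 0 := analyticAt_const.prod analyticAt_id
  exact AnalyticAt.comp' (g := fun p : ℂ × ℂ => f p.1 p.2) (f := fun t : ℂ => (z, t)) (x := 0)
    (hf z) h1

theorem An.at₀ {f : ℂ → ℂ → ℂ} (hf : An f) (z : ℂ) : AnalyticAt ℂ (fun z => f z 0) z := by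
  have h1 : AnalyticAt ℂ (fun z : ℂ => (z, (0 : ℂ))) z := analyticAt_id.prod analyticAt_const
  exact AnalyticAt.comp' (g := fun p : ℂ × ℂ => f p.1 p.2) (f := fun z : ℂ => (z, (0 : ℂ)))
    (x := z) (hf z) h1

/-- derivative in the second variable -/
theorem An.de {f : ℂ → ℂ → ℂ} (hf : An f) : An fun z t => deriv (f z) t := by
  intro z
  have h1 := (hf z).fderiv
  have h2 : AnalyticAt ℂ (fun p : ℂ × ℂ => fderiv ℂ (fun p : ℂ × ℂ => f p.1 p.2) p (0, 1)) (z, 0) :=
    ((ContinuousLinearMap.apply ℂ ℂ ((0 : ℂ), (1 : ℂ))).analyticAt _).comp' h1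
  refine h2.congr ?_
  filter_upwards [(hf z).eventually_analyticAt] with p hp
  have h3 : HasFDerivAt (fun p : ℂ × ℂ => f p.1 p.2) (fderiv ℂ (fun p : ℂ × ℂ => f p.1 p.2) p)
      (p.1, p.2) := hp.differentiableAt.hasFDerivAt
  have h4 : HasDerivAt (fun t : ℂ => (p.1, t)) ((0 : ℂ), (1 : ℂ)) p.2 :=
    (hasDerivAt_const _ _).prodMk (hasDerivAt_id _)
  exact (h3.comp_hasDerivAt (f := fun t : ℂ => (p.1, t)) p.2 h4).deriv.symm

theorem An.iter {f : ℂ → ℂ → ℂ} (hf : An f) (n : ℕ) : An fun z t => iteratedDeriv n (f z) t := by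
  induction n generalizing f with
  | zero => simpa [iteratedDeriv_zero] using hf
  | succ n ih =>
    have := ih hf.de
    simp only [iteratedDeriv_succ']
    exact this

/-- the unit circle accumulates at `1` -/
theorem circle_frequently : ∃ᶠ z in 𝓝[≠] (1 : ℂ), ‖z‖ = 1 := by
  have hc : Tendsto (fun x : ℝ => Complex.exp (x * I)) (𝓝[≠] 0) (𝓝[≠] (1 : ℂ)) := by
    rw [tendsto_nhdsWithin_iff]
    constructor
    · have : ContinuousAt (fun x : ℝ => Complex.exp (x * I)) 0 := by fun_prop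
      have h := this.tendsto
      simp only [ofReal_zero, zero_mul, Complex.exp_zero] at h
      exact h.mono_left nhdsWithin_le_nhds
    · have h1 : ∀ᶠ x : ℝ in 𝓝[≠] 0, |x| < 1 := by
        refine nhdsWithin_le_nhds ?_
        have : ContinuousAt (fun x : ℝ => |x|) 0 := by fun_prop
        exact this.eventually (gt_mem_nhds (by simp))
      filter_upwards [h1, self_mem_nhdsWithin] with x hx hx0 hcon
      have h3 : Complex.exp (x * I) = 1 := hcon
      rw [Complex.exp_eq_one_iff] at h3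
      obtain ⟨n, hn⟩ := h3
      have h4 : (x : ℂ) = n * (2 * Real.pi) := by
        have : (x : ℂ) * I = (n * (2 * Real.pi)) * I := by rw [hn]; ring
        exact mul_right_cancel₀ I_ne_zero this
      have h5 : x = n * (2 * Real.pi) := by exact_mod_cast h4
      rcases eq_or_ne n 0 with rfl | hn0
      · exact hx0 (by simpa using h5)
      · have : (1 : ℝ) ≤ |(n : ℝ)| := by exact_mod_cast Int.one_le_abs hn0
        rw [h5, abs_mul, abs_of_pos (by positivity : (0 : ℝ) < 2 * Real.pi)] at hx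
        nlinarith [Real.pi_gt_three]
  have h2 : ∃ᶠ x : ℝ in 𝓝[≠] 0, ‖Complex.exp (x * I)‖ = 1 :=
    (Eventually.of_forall fun x => Complex.norm_exp_ofReal_mul_I x).frequently
  exact hc.frequently h2

/-- the identity principle -/
theorem An.ident {G : ℂ → ℂ → ℂ} (hG : An G)
    (h1 : ∀ z : ℂ, ‖z‖ = 1 → ∃ᶠ t in 𝓝[≠] 0, G z t = 0) (z : ℂ) : ∀ᶠ t in 𝓝 0, G z t = 0 := by
  have h2 : ∀ z : ℂ, ‖z‖ = 1 → ∀ᶠ t in 𝓝 0, G z t = 0 := fun z hz =>
    (hG.at z).frequently_zero_iff_eventually_zero.1 (h1 z hz)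
  have h3 : ∀ n : ℕ, ∀ z : ℂ, iteratedDeriv n (G z) 0 = 0 := by
    intro n
    have ha : AnalyticOnNhd ℂ (fun z => iteratedDeriv n (G z) 0) univ := fun z _ =>
      (hG.iter n).at₀ z
    have hz : ∃ᶠ z in 𝓝[≠] (1 : ℂ), iteratedDeriv n (G z) 0 = 0 := by
      refine circle_frequently.mono fun z hz => ?_
      have h4 : G z =ᶠ[𝓝 0] fun _ => 0 := h2 z hz
      rw [h4.iteratedDeriv_eq]
      simp [iteratedDeriv_const]
    intro z
    have := ha.eqOn_zero_of_preconnected_of_frequently_eq_zero isPreconnected_univ (mem_univ 1) hz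
    exact this (mem_univ z)
  have h5 := (hG.at z).hasFPowerSeriesAt
  have h6 : (FormalMultilinearSeries.ofScalars ℂ (fun n ↦ iteratedDeriv n (G z) 0 / n.factorial)) =
      (0 : FormalMultilinearSeries ℂ ℂ ℂ) := by
    ext n
    simp [FormalMultilinearSeries.ofScalars, h3]
  rw [h6] at h5
  exact h5.eventually_eq_zero

/-! ## parametric integrals -/

theorem analyticAt_PI {F : ℂ × ℂ → ℂ} {z : ℂ} (hF : AnalyticAt ℂ F (z, 0)) :
    AnalyticAt ℂ (fun p : ℂ × ℂ => ∫ s in (0 : ℝ)..1, F (p.1, s * p.2)) (z, 0) := by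
  obtain ⟨r, hr, hb⟩ := Metric.eventually_nhds_iff_ball.1 hF.eventually_analyticAt
  have hd : DifferentiableOn ℂ F (ball (z, 0) r) := fun p hp =>
    (hb p hp).differentiableAt.differentiableWithinAt
  have hmem : ∀ (ρ : ℝ) (p : ℂ × ℂ), p ∈ ball ((z, 0) : ℂ × ℂ) ρ → ∀ s ∈ Icc (0 : ℝ) 1,
      (p.1, (s : ℂ) * p.2) ∈ ball ((z, 0) : ℂ × ℂ) ρ := by
    intro ρ p hp s hs
    rw [mem_ball, Prod.dist_eq] at hp ⊢
    refine max_lt ((le_max_left _ _).trans_lt hp) ?_
    have h1 : dist p.2 0 < ρ := (le_max_right _ _).trans_lt hp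
    rw [dist_zero_right] at h1 ⊢
    rw [norm_mul, Complex.norm_of_nonneg hs.1]
    exact (mul_le_of_le_one_left (norm_nonneg _) hs.2).trans_lt h1
  have hcF : ContinuousOn (fderiv ℂ F) (ball (z, 0) r) :=
    P268.continuousOn_fderiv_of_differentiableOn isOpen_ball hd
  refine P268.analyticAt_of_differentiableOn isOpen_ball (U := ball (z, 0) (r / 2)) ?_
    (mem_ball_self (by positivity))
  intro p hp
  apply DifferentiableAt.differentiableWithinAt
  -- the linear map `(u, v) ↦ (u, s v)`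
  set Λ : ℝ → (ℂ × ℂ →L[ℂ] ℂ × ℂ) := fun s =>
    (ContinuousLinearMap.fst ℂ ℂ ℂ).prod ((s : ℂ) • ContinuousLinearMap.snd ℂ ℂ ℂ) with hΛ
  have hΛc : Continuous Λ := by
    rw [continuous_clm_apply]
    intro y
    have : (fun s : ℝ => Λ s y) = fun s : ℝ => (y.1, (s : ℂ) * y.2) := by
      funext s
      simp [hΛ]
    rw [this]
    fun_prop
  set K : Set ((ℂ × ℂ) × ℝ) := closedBall (z, 0) (r / 2) ×ˢ Icc (0 : ℝ) 1 with hK
  have hKc : IsCompact K := (isCompact_closedBall _ _).prod isCompact_Icc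
  have hmap : ∀ q ∈ K, (q.1.1, (q.2 : ℂ) * q.1.2) ∈ ball ((z, 0) : ℂ × ℂ) r := by
    rintro ⟨q, s⟩ ⟨hq, hs⟩
    refine hmem r q ?_ s hs
    exact closedBall_subset_ball (by linarith) hq
  have hcont : ContinuousOn (fun q : (ℂ × ℂ) × ℝ =>
      (fderiv ℂ F (q.1.1, (q.2 : ℂ) * q.1.2)).comp (Λ q.2)) K := by
    refine ContinuousOn.clm_comp ?_ (hΛc.comp continuous_snd).continuousOn
    refine hcF.comp (Continuous.continuousOn (by fun_prop)) hmap
  obtain ⟨C, hC⟩ := hKc.exists_bound_of_continuousOn hcont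
  have hI : ∀ q ∈ ball ((z, 0) : ℂ × ℂ) (r / 2),
      ContinuousOn (fun s : ℝ => F (q.1, (s : ℂ) * q.2)) (uIcc 0 1) := by
    intro q hq
    rw [uIcc_of_le zero_le_one]
    refine hd.continuousOn.comp (Continuous.continuousOn (by fun_prop)) fun s hs => ?_
    exact hmem r q (ball_subset_ball (by linarith) hq) s hs
  have hI' : ContinuousOn (fun s : ℝ => (fderiv ℂ F (p.1, (s : ℂ) * p.2)).comp (Λ s)) (uIcc 0 1) := by
    rw [uIcc_of_le zero_le_one]
    refine hcont.comp (f := fun s : ℝ => (p, s)) (Continuous.continuousOn (by fun_prop)) ?_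
    intro s hs
    exact ⟨ball_subset_closedBall hp, hs⟩
  have := intervalIntegral.hasFDerivAt_integral_of_dominated_of_fderiv_le
    (μ := MeasureTheory.volume) (a := (0 : ℝ)) (b := 1) (𝕜 := ℂ)
    (F := fun (q : ℂ × ℂ) (s : ℝ) => F (q.1, (s : ℂ) * q.2))
    (F' := fun (q : ℂ × ℂ) (s : ℝ) => (fderiv ℂ F (q.1, (s : ℂ) * q.2)).comp (Λ s))
    (x₀ := p) (s := ball ((z, 0) : ℂ × ℂ) (r / 2)) (bound := fun _ => C)
    (isOpen_ball.mem_nhds hp) ?_ ?_ ?_ ?_ ?_ ?_
  · exact this.differentiableAt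
  · filter_upwards [isOpen_ball.mem_nhds hp] with q hq
    exact (hI q hq).intervalIntegrable.def'.aestronglyMeasurable
  · exact (hI p hp).intervalIntegrable
  · exact hI'.intervalIntegrable.def'.aestronglyMeasurable
  · refine Eventually.of_forall fun s hs q hq => ?_
    rw [uIoc_of_le zero_le_one] at hs
    exact hC (q, s) ⟨ball_subset_closedBall hq, ⟨hs.1.le, hs.2⟩⟩
  · exact intervalIntegrable_const
  · refine Eventually.of_forall fun s hs q hq => ?_
    rw [uIoc_of_le zero_le_one] at hs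
    have h1 : HasFDerivAt F (fderiv ℂ F (q.1, (s : ℂ) * q.2)) (q.1, (s : ℂ) * q.2) :=
      (hb _ (hmem r q (ball_subset_ball (by linarith) hq) s ⟨hs.1.le, hs.2⟩)).differentiableAt.hasFDerivAt
    have h2 : HasFDerivAt (fun q : ℂ × ℂ => (q.1, (s : ℂ) * q.2)) (Λ s) q :=
      (Λ s).hasFDerivAt
    exact h1.comp q h2

/-- averages over `[0, t]` -/
noncomputable def PI (f : ℂ → ℂ) (t : ℂ) : ℂ := ∫ s in (0 : ℝ)..1, f (s * t)

theorem An.PI {f : ℂ → ℂ → ℂ} (hf : An f) : An fun z t => PI (f z) t := fun z =>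
  analyticAt_PI (hf z)

theorem PI_zero (f : ℂ → ℂ) : PI f 0 = f 0 := by simp [Rat.PI]

theorem PI_congr {f g : ℂ → ℂ} (h : f =ᶠ[𝓝 0] g) : PI f =ᶠ[𝓝 0] PI g := by
  obtain ⟨r, hr, hb⟩ := Metric.eventually_nhds_iff_ball.1 h
  filter_upwards [ball_mem_nhds (0 : ℂ) hr] with t ht
  unfold Rat.PI
  refine intervalIntegral.integral_congr fun s hs => ?_
  rw [uIcc_of_le zero_le_one] at hs
  refine hb _ ?_
  rw [mem_ball_zero_iff] at ht ⊢
  rw [norm_mul, Complex.norm_of_nonneg hs.1]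
  exact (mul_le_of_le_one_left (norm_nonneg _) hs.2).trans_lt ht

/-- `t * PI f t` is the primitive of `f` vanishing at `0` -/
theorem PI_prim {f : ℂ → ℂ} {r : ℝ} (hf : DifferentiableOn ℂ f (ball 0 r)) {G : ℂ → ℂ}
    (hG : ∀ t ∈ ball (0 : ℂ) r, HasDerivAt G (f t) t) {t : ℂ} (ht : t ∈ ball (0 : ℂ) r) :
    t * PI f t = G t - G 0 := by
  have hmem : ∀ s ∈ Icc (0 : ℝ) 1, (s : ℂ) * t ∈ ball (0 : ℂ) r := by
    intro s hs
    rw [mem_ball_zero_iff] at ht ⊢
    rw [norm_mul, Complex.norm_of_nonneg hs.1]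
    exact (mul_le_of_le_one_left (norm_nonneg _) hs.2).trans_lt ht
  have h1 : ∀ s ∈ uIcc (0 : ℝ) 1, HasDerivAt (fun s : ℝ => G (s * t)) (t * f (s * t)) s := by
    intro s hs
    rw [uIcc_of_le zero_le_one] at hs
    have h2 : HasDerivAt (fun s : ℝ => (s : ℂ) * t) t s := by
      simpa using (Complex.ofRealCLM.hasDerivAt (x := s)).mul_const t
    have := (hG _ (hmem s hs)).comp s h2
    rwa [mul_comm] at this
  have h3 : IntervalIntegrable (fun s : ℝ => t * f (s * t)) MeasureTheory.volume 0 1 := by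
    refine ContinuousOn.intervalIntegrable ?_
    rw [uIcc_of_le zero_le_one]
    refine ContinuousOn.mul continuousOn_const ?_
    exact hf.continuousOn.comp (Continuous.continuousOn (by fun_prop)) hmem
  have h4 := intervalIntegral.integral_eq_sub_of_hasDerivAt h1 h3
  rw [intervalIntegral.integral_const_mul] at h4
  simpa [Rat.PI] using h4

theorem PI_hasDerivAt {f : ℂ → ℂ} (hf : AnalyticAt ℂ f 0) :
    ∀ᶠ t in 𝓝 0, HasDerivAt (fun t => t * PI f t) (f t) t := by
  obtain ⟨r, hr, hb⟩ := Metric.eventually_nhds_iff_ball.1 hf.eventually_analyticAt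
  have hd : DifferentiableOn ℂ f (ball 0 r) := fun p hp =>
    (hb p hp).differentiableAt.differentiableWithinAt
  obtain ⟨G, hG⟩ := hd.isExactOn_ball
  filter_upwards [isOpen_ball.mem_nhds (mem_ball_self (x := (0 : ℂ)) hr)] with t ht
  have h1 : (fun t => t * PI f t) =ᶠ[𝓝 t] fun t => G t - G 0 := by
    filter_upwards [isOpen_ball.mem_nhds ht] with t' ht'
    exact PI_prim hd hG ht'
  exact ((hG t ht).sub_const _).congr_of_eventuallyEq h1

/-- formula for averages from a primitive near `0` -/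
theorem PI_eq {f G : ℂ → ℂ} (hf : AnalyticAt ℂ f 0) (hG : ∀ᶠ t in 𝓝 0, HasDerivAt G (f t) t) :
    ∀ᶠ t in 𝓝 0, t * PI f t = G t - G 0 := by
  obtain ⟨r, hr, hb⟩ := Metric.eventually_nhds_iff_ball.1 (hf.eventually_analyticAt.and hG)
  have hd : DifferentiableOn ℂ f (ball 0 r) := fun p hp =>
    (hb p hp).1.differentiableAt.differentiableWithinAt
  filter_upwards [isOpen_ball.mem_nhds (mem_ball_self (x := (0 : ℂ)) hr)] with t ht
  exact PI_prim hd (fun t ht => (hb t ht).2) ht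

end Vale.Agent.P097.H439.Rat
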